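import Crest.Agent.Lib.S0355.Helper70Defs

/-!
# S0355 — package F (helper14): the polar description `polar_eq`

`⋂_{|u|=1} {x | ⟨x,u⟩ ≤ (a/2)·H(u)} = PiSet a`, pure inequalities.
No `sorry` in this file.
-/

set_option autoImplicit false
open MeasureTheory

namespace Crest.Agent.S0355.Helper14
open Crest.Agent.S0355.Helper70

/-- Coordinate formula for the real inner product on `EuclideanSpace ℝ (Fin 20)`. -/
theorem inner_eq_sum (x u : EuclideanSpace ℝ (Fin 20)) :
    inner ℝ x u = ∑ i, x.ofLp i * u.ofLp i := by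
  rw [PiLp.inner_apply]
  apply Finset.sum_congr rfl
  intro i _
  simp [mul_comm]

/-- `Hfun` is positively homogeneous. -/
theorem Hfun_smul (c : ℝ) (hc : 0 ≤ c) (v : Fin 20 → ℝ) : Hfun (c • v) = c * Hfun v := by
  unfold Hfun
  simp only [Pi.smul_apply, smul_eq_mul, ← Finset.mul_sum, abs_mul, abs_of_nonneg hc]
  ring

/-- The one-block inequality: if all `|x i| ≤ a` and all `|x i - x j| ≤ a` on a block `B`, then
`∑_B x u ≤ (a/2) (∑_B |u| + |∑_B u|)`. -/
theorem block_le (a : ℝ) (ha : 0 < a) (B : Finset (Fin 20)) (x u : Fin 20 → ℝ)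
    (h1 : ∀ i ∈ B, |x i| ≤ a) (h2 : ∀ i ∈ B, ∀ j ∈ B, |x i - x j| ≤ a) :
    ∑ i ∈ B, x i * u i ≤ a / 2 * (∑ i ∈ B, |u i| + |∑ i ∈ B, u i|) := by
  rcases B.eq_empty_or_nonempty with rfl | hne
  · simp
  obtain ⟨i0, hi0, hmax⟩ := Finset.exists_max_image B x hne
  obtain ⟨s, hs1, hs2⟩ : ∃ s : ℝ, (∀ i ∈ B, |x i - s| ≤ a / 2) ∧ |s| ≤ a / 2 := by
    refine ⟨max (x i0 - a / 2) (-(a / 2)), ?_, ?_⟩
    · intro i hi
      have hm := hmax i hi
      have h3 := abs_le.mp (h2 i0 hi0 i hi)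
      have h4 := abs_le.mp (h1 i hi)
      have hle : max (x i0 - a / 2) (-(a / 2)) ≤ x i + a / 2 :=
        max_le (by linarith [h3.2]) (by linarith [h4.1])
      have hge : x i0 - a / 2 ≤ max (x i0 - a / 2) (-(a / 2)) := le_max_left _ _
      rw [abs_le]
      constructor <;> linarith
    · have h4 := abs_le.mp (h1 i0 hi0)
      have hge : -(a / 2) ≤ max (x i0 - a / 2) (-(a / 2)) := le_max_right _ _
      have hle : max (x i0 - a / 2) (-(a / 2)) ≤ a / 2 :=
        max_le (by linarith [h4.2]) (by linarith)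
      rw [abs_le]
      constructor <;> linarith
  have key : ∑ i ∈ B, x i * u i = ∑ i ∈ B, (x i - s) * u i + s * ∑ i ∈ B, u i := by
    rw [Finset.mul_sum, ← Finset.sum_add_distrib]
    apply Finset.sum_congr rfl
    intro i _
    ring
  have e1 : ∑ i ∈ B, (x i - s) * u i ≤ a / 2 * ∑ i ∈ B, |u i| := by
    rw [Finset.mul_sum]
    apply Finset.sum_le_sum
    intro i hi
    calc (x i - s) * u i ≤ |(x i - s) * u i| := le_abs_self _
      _ = |x i - s| * |u i| := abs_mul _ _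
      _ ≤ a / 2 * |u i| := mul_le_mul_of_nonneg_right (hs1 i hi) (abs_nonneg _)
  have e2 : s * ∑ i ∈ B, u i ≤ a / 2 * |∑ i ∈ B, u i| := by
    calc s * ∑ i ∈ B, u i ≤ |s * ∑ i ∈ B, u i| := le_abs_self _
      _ = |s| * |∑ i ∈ B, u i| := abs_mul _ _
      _ ≤ a / 2 * |∑ i ∈ B, u i| := mul_le_mul_of_nonneg_right hs2 (abs_nonneg _)
  rw [key]
  linarith

/-- From the unit sphere to all vectors, by homogeneity. -/
theorem test_all (a : ℝ) (x : EuclideanSpace ℝ (Fin 20))
    (hx : ∀ u ∈ Metric.sphere (0 : EuclideanSpace ℝ (Fin 20)) 1,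
      inner ℝ x u ≤ a / 2 * Hfun u.ofLp)
    (v : EuclideanSpace ℝ (Fin 20)) : inner ℝ x v ≤ a / 2 * Hfun v.ofLp := by
  by_cases hv : v = 0
  · subst hv
    simp [Hfun]
  have hn : 0 < ‖v‖ := norm_pos_iff.mpr hv
  have hu : (‖v‖⁻¹ • v) ∈ Metric.sphere (0 : EuclideanSpace ℝ (Fin 20)) 1 := by
    rw [mem_sphere_zero_iff_norm, norm_smul, norm_inv, norm_norm, inv_mul_cancel₀ hn.ne']
  have h := hx _ hu
  rw [inner_smul_right] at h
  have h5 : (‖v‖⁻¹ • v).ofLp = ‖v‖⁻¹ • v.ofLp := rfl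
  rw [h5, Hfun_smul _ (inv_nonneg.mpr hn.le)] at h
  calc inner ℝ x v = ‖v‖ * (‖v‖⁻¹ * inner ℝ x v) := by field_simp
    _ ≤ ‖v‖ * (a / 2 * (‖v‖⁻¹ * Hfun v.ofLp)) := mul_le_mul_of_nonneg_left h hn.le
    _ = a / 2 * Hfun v.ofLp := by field_simp

theorem mem_B1 (i : Fin 20) : i ∈ B1 ↔ i.val < 10 := by simp [B1]
theorem mem_B2 (i : Fin 20) : i ∈ B2 ↔ ¬ i.val < 10 := by simp [B2]

theorem abs_single (i k : Fin 20) : |(Pi.single i (1 : ℝ) : Fin 20 → ℝ) k| = (Pi.single i (1 : ℝ) : Fin 20 → ℝ) k := by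
  by_cases h : k = i
  · subst h; simp
  · simp [h]

/-- `H(e_i) = 2`. -/
theorem Hfun_single (i : Fin 20) : Hfun (Pi.single i (1 : ℝ)) = 2 := by
  unfold Hfun
  simp only [abs_single, Finset.sum_pi_single', mem_B1, mem_B2, Finset.mem_univ, if_true]
  by_cases h : i.val < 10 <;> simp [h] <;> norm_num

/-- `H(-e_i) = 2`. -/
theorem Hfun_neg (v : Fin 20 → ℝ) : Hfun (-v) = Hfun v := by
  unfold Hfun
  simp only [Pi.neg_apply, abs_neg, Finset.sum_neg_distrib]

/-- `H(e_i - e_j) ≤ 2` for `i, j` in the same block. -/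
theorem Hfun_single_sub (i j : Fin 20) (hij : i.val < 10 ↔ j.val < 10) :
    Hfun (Pi.single i (1 : ℝ) - Pi.single j (1 : ℝ)) ≤ 2 := by
  unfold Hfun
  have hb1 : ∑ k ∈ B1, (Pi.single i (1 : ℝ) - Pi.single j (1 : ℝ) : Fin 20 → ℝ) k = 0 := by
    simp only [Pi.sub_apply, Finset.sum_sub_distrib, Finset.sum_pi_single', mem_B1]
    by_cases h : i.val < 10
    · simp [h, hij.mp h]
    · have hj : ¬ j.val < 10 := fun h' => h (hij.mpr h')
      simp [h, hj]
  have hb2 : ∑ k ∈ B2, (Pi.single i (1 : ℝ) - Pi.single j (1 : ℝ) : Fin 20 → ℝ) k = 0 := by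
    simp only [Pi.sub_apply, Finset.sum_sub_distrib, Finset.sum_pi_single', mem_B2]
    by_cases h : i.val < 10
    · simp [h, hij.mp h]
    · have hj : ¬ j.val < 10 := fun h' => h (hij.mpr h')
      simp [h, hj]
  have hs : ∑ k, |(Pi.single i (1 : ℝ) - Pi.single j (1 : ℝ) : Fin 20 → ℝ) k| ≤ 2 := by
    calc ∑ k, |(Pi.single i (1 : ℝ) - Pi.single j (1 : ℝ) : Fin 20 → ℝ) k|
        ≤ ∑ k, (|(Pi.single i (1 : ℝ) : Fin 20 → ℝ) k| + |(Pi.single j (1 : ℝ) : Fin 20 → ℝ) k|) := by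
          apply Finset.sum_le_sum
          intro k _
          exact abs_sub _ _
      _ = 2 := by
          simp only [abs_single, Finset.sum_add_distrib, Finset.sum_pi_single', Finset.mem_univ,
            if_true]
          norm_num
  rw [hb1, hb2]
  simp only [abs_zero, add_zero]
  exact hs

theorem sum_mul_single (x : Fin 20 → ℝ) (i : Fin 20) :
    ∑ k, x k * (Pi.single i (1 : ℝ) : Fin 20 → ℝ) k = x i := by
  simp [Pi.single_apply]

/-- Package F: the polar description. -/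
theorem polar_eq (a : ℝ) (ha : 0 < a) :
    (⋂ u ∈ Metric.sphere (0 : EuclideanSpace ℝ (Fin 20)) 1,
        {x : EuclideanSpace ℝ (Fin 20) | inner ℝ x u ≤ a / 2 * Hfun u.ofLp}) =
      {x : EuclideanSpace ℝ (Fin 20) | x.ofLp ∈ PiSet a} := by
  ext x
  simp only [Set.mem_iInter, Set.mem_ofPred_eq]
  constructor
  · intro hx
    have T := test_all a x hx
    have t1 : ∀ w : Fin 20 → ℝ, ∑ k, x.ofLp k * w k ≤ a / 2 * Hfun w := by
      intro w
      have h := T (WithLp.toLp 2 w)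
      rw [inner_eq_sum] at h
      exact h
    constructor
    · intro i
      rw [abs_le]
      constructor
      · have h := t1 (-Pi.single i (1 : ℝ))
        rw [Hfun_neg, Hfun_single] at h
        have e : ∑ k, x.ofLp k * (-Pi.single i (1 : ℝ) : Fin 20 → ℝ) k = - x.ofLp i := by
          simp only [Pi.neg_apply, mul_neg, Finset.sum_neg_distrib, sum_mul_single]
        rw [e] at h
        linarith
      · have h := t1 (Pi.single i (1 : ℝ))
        rw [Hfun_single, sum_mul_single] at h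
        linarith
    · intro i j hij
      have key : ∀ i j : Fin 20, (i.val < 10 ↔ j.val < 10) → x.ofLp i - x.ofLp j ≤ a := by
        intro i j hij
        have h := t1 (Pi.single i (1 : ℝ) - Pi.single j (1 : ℝ))
        have e : ∑ k, x.ofLp k * (Pi.single i (1 : ℝ) - Pi.single j (1 : ℝ) : Fin 20 → ℝ) k
            = x.ofLp i - x.ofLp j := by
          simp only [Pi.sub_apply, mul_sub, Finset.sum_sub_distrib, sum_mul_single]
        rw [e] at h
        have hH := Hfun_single_sub i j hij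
        nlinarith
      rw [abs_le]
      constructor
      · have := key j i hij.symm
        linarith
      · exact key i j hij
  · rintro ⟨h1, h2⟩ u _
    rw [inner_eq_sum]
    have hb1 := block_le a ha B1 x.ofLp u.ofLp (fun i _ => h1 i)
      (fun i hi j hj => h2 i j ⟨fun _ => (mem_B1 j).mp hj, fun _ => (mem_B1 i).mp hi⟩)
    have hb2 := block_le a ha B2 x.ofLp u.ofLp (fun i _ => h1 i)
      (fun i hi j hj => h2 i j
        ⟨fun h => absurd h ((mem_B2 i).mp hi), fun h => absurd h ((mem_B2 j).mp hj)⟩)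
    have split : ∀ f : Fin 20 → ℝ, ∑ i, f i = ∑ i ∈ B1, f i + ∑ i ∈ B2, f i := by
      intro f
      unfold B1 B2
      exact (Finset.sum_filter_add_sum_filter_not Finset.univ (fun i : Fin 20 => i.val < 10) f).symm
    rw [split (fun i => x.ofLp i * u.ofLp i)]
    unfold Hfun
    rw [split (fun i => |u.ofLp i|)]
    linarith

end Crest.Agent.S0355.Helper14
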