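import Crest.Agent.Lib.S0355.Helper70Defs

/-!
# S0355 — package A (helper51, backup): sweep decomposition over the upper facets

For a compact polyhedron `P = {ℓ j ≤ b j}` and a direction `u`, the sweep `P + [0,1]·u` is, up to
null sets, the disjoint union of `P` and of the prisms `F j + [0,1]·u` over the facets
`F j = P ∩ {ℓ j = b j}` with `ℓ j u > 0`.  No `sorry` in this file.
-/

set_option autoImplicit false
open MeasureTheory

namespace Crest.Agent.S0355.Helper51
open Crest.Agent.S0355.Helper70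

/-- A level set of a nonzero linear functional is Haar-null. -/
theorem measure_levelSet_eq_zero {E : Type*} [NormedAddCommGroup E] [NormedSpace ℝ E]
    [FiniteDimensional ℝ E] [MeasurableSpace E] [BorelSpace E] (μ : Measure E)
    [μ.IsAddHaarMeasure] (g : E →ₗ[ℝ] ℝ) (c : ℝ) (w : E) (hw : g w ≠ 0) :
    μ {x : E | g x = c} = 0 := by
  by_cases h : ∃ x0, g x0 = c
  · obtain ⟨x0, hx0⟩ := h
    have hs : (AffineSubspace.mk' x0 (LinearMap.ker g)) ≠ ⊤ := by
      intro htop
      have hmem : (w + x0) ∈ (AffineSubspace.mk' x0 (LinearMap.ker g)) := by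
        rw [htop]; exact AffineSubspace.mem_top ℝ E _
      rw [AffineSubspace.mem_mk'] at hmem
      simp at hmem
      exact hw hmem
    have h0 := Measure.addHaar_affineSubspace μ (AffineSubspace.mk' x0 (LinearMap.ker g)) hs
    refine measure_mono_null ?_ h0
    intro x hx
    simp only [Set.mem_ofPred_eq] at hx
    show x ∈ AffineSubspace.mk' x0 (LinearMap.ker g)
    rw [AffineSubspace.mem_mk']
    simp [hx, hx0]
  · have hempty : {x : E | g x = c} = ∅ := by
      ext x
      simp only [Set.mem_ofPred_eq, Set.mem_empty_iff_false, iff_false]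
      intro hx
      exact h ⟨x, hx⟩
    rw [hempty]; simp

/-- The sweep of a compact set is compact. -/
theorem isCompact_sweep {E : Type*} [NormedAddCommGroup E] [NormedSpace ℝ E]
    {K : Set E} (hK : IsCompact K) (u : E) : IsCompact (sweep K u) := by
  have hc : Continuous (fun p : E × ℝ => p.1 + p.2 • u) := by fun_prop
  have h := (hK.prod (isCompact_Icc (a := (0 : ℝ)) (b := 1))).image hc
  have he : (fun p : E × ℝ => p.1 + p.2 • u) '' (K ×ˢ Set.Icc (0 : ℝ) 1) = sweep K u := by
    unfold sweep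
    rw [← Set.image_uncurry_prod]
    rfl
  rwa [he] at h

theorem sweep_decomp {E : Type*} [NormedAddCommGroup E] [NormedSpace ℝ E] [FiniteDimensional ℝ E]
    [MeasurableSpace E] [BorelSpace E] (μ : Measure E) [μ.IsAddHaarMeasure]
    {J : Type*} [Fintype J] (ℓ : J → E →ₗ[ℝ] ℝ) (b : J → ℝ) (u : E)
    (hK : IsCompact {x : E | ∀ j, ℓ j x ≤ b j})
    (hind : ∀ j k, j ≠ k → 0 < ℓ j u → 0 < ℓ k u → ∃ w, ℓ k u * ℓ j w ≠ ℓ j u * ℓ k w) :
    μ (sweep {x : E | ∀ j, ℓ j x ≤ b j} u) =
      μ {x : E | ∀ j, ℓ j x ≤ b j} +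
        ∑ j ∈ Finset.univ.filter (fun j => 0 < ℓ j u),
          μ (sweep {x : E | (∀ k, ℓ k x ≤ b k) ∧ ℓ j x = b j} u) := by
  set P : Set E := {x : E | ∀ j, ℓ j x ≤ b j} with hP
  set S : Finset J := Finset.univ.filter (fun j => 0 < ℓ j u) with hS
  have hSmem : ∀ j, j ∈ S ↔ 0 < ℓ j u := by
    intro j; simp [hS]
  -- the facets
  have hFsub : ∀ j, {x : E | (∀ k, ℓ k x ≤ b k) ∧ ℓ j x = b j} ⊆ P := fun j x hx => hx.1
  have hcont : ∀ j, Continuous (ℓ j) := fun j => (ℓ j).continuous_of_finiteDimensional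
  have hFc : ∀ j, IsCompact {x : E | (∀ k, ℓ k x ≤ b k) ∧ ℓ j x = b j} := by
    intro j
    have hcl : IsClosed {x : E | ℓ j x = b j} := isClosed_eq (hcont j) continuous_const
    have h := hK.inter_right hcl
    have he : P ∩ {x : E | ℓ j x = b j} = {x : E | (∀ k, ℓ k x ≤ b k) ∧ ℓ j x = b j} := by
      ext x; simp [hP]
    rwa [he] at h
  have hAc : ∀ j, IsCompact (sweep {x : E | (∀ k, ℓ k x ≤ b k) ∧ ℓ j x = b j} u) :=
    fun j => isCompact_sweep (hFc j) u
  -- the set identity
  have hset : sweep P u = P ∪ ⋃ j ∈ S, sweep {x : E | (∀ k, ℓ k x ≤ b k) ∧ ℓ j x = b j} u := by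
    apply Set.Subset.antisymm
    · intro x hx
      obtain ⟨k, hk, t, ht, rfl⟩ := hx
      have hk' : ∀ j, ℓ j k ≤ b j := hk
      by_cases hxP : (k + t • u) ∈ P
      · exact Or.inl hxP
      · right
        have hex : ∃ j0, b j0 < ℓ j0 (k + t • u) := by
          by_contra hcon
          push Not at hcon
          exact hxP hcon
        obtain ⟨j0, hj0⟩ := hex
        have hj0' : b j0 < ℓ j0 k + t * ℓ j0 u := by
          simpa [map_add, map_smul] using hj0
        have hpos0 : 0 < ℓ j0 u := by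
          by_contra hneg
          push Not at hneg
          have : t * ℓ j0 u ≤ 0 := mul_nonpos_of_nonneg_of_nonpos ht.1 hneg
          linarith [hk' j0]
        have hne : S.Nonempty := ⟨j0, (hSmem j0).2 hpos0⟩
        obtain ⟨js, hjsS, hmin⟩ :=
          S.exists_min_image (fun j => (b j - ℓ j k) / ℓ j u) hne
        have hposs : 0 < ℓ js u := (hSmem js).1 hjsS
        set s : ℝ := (b js - ℓ js k) / ℓ js u with hs
        have hs0 : 0 ≤ s := div_nonneg (sub_nonneg.2 (hk' js)) hposs.le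
        have hslt : s < t := by
          have h1 : s ≤ (b j0 - ℓ j0 k) / ℓ j0 u := hmin j0 ((hSmem j0).2 hpos0)
          have h2 : (b j0 - ℓ j0 k) / ℓ j0 u < t := by
            rw [div_lt_iff₀ hpos0]; linarith
          linarith
        have hfP : ∀ j, ℓ j (k + s • u) ≤ b j := by
          intro j
          have hval : ℓ j (k + s • u) = ℓ j k + s * ℓ j u := by
            simp [map_add, map_smul]
          rw [hval]
          by_cases hj : 0 < ℓ j u
          · have h1 : s ≤ (b j - ℓ j k) / ℓ j u := hmin j ((hSmem j).2 hj)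
            rw [le_div_iff₀ hj] at h1
            linarith
          · push Not at hj
            have : s * ℓ j u ≤ 0 := mul_nonpos_of_nonneg_of_nonpos hs0 hj
            linarith [hk' j]
        have hfeq : ℓ js (k + s • u) = b js := by
          have hval : ℓ js (k + s • u) = ℓ js k + s * ℓ js u := by
            simp [map_add, map_smul]
          rw [hval, hs, div_mul_cancel₀ _ hposs.ne']
          ring
        refine Set.mem_iUnion₂.2 ⟨js, hjsS, ?_⟩
        refine ⟨k + s • u, ⟨hfP, hfeq⟩, t - s, ⟨by linarith, by linarith [ht.2]⟩, ?_⟩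
        simp only [sub_smul]
        abel
    · intro x hx
      rcases hx with hx | hx
      · exact ⟨x, hx, 0, ⟨le_refl _, zero_le_one⟩, by simp⟩
      · obtain ⟨j, -, hxj⟩ := Set.mem_iUnion₂.1 hx
        exact Set.image2_subset (hFsub j) (Set.Subset.refl _) hxj
  -- null intersections
  have h1 : ∀ j ∈ S, μ (P ∩ sweep {x : E | (∀ k, ℓ k x ≤ b k) ∧ ℓ j x = b j} u) = 0 := by
    intro j hj
    have hpos : 0 < ℓ j u := (hSmem j).1 hj
    refine measure_mono_null ?_ (measure_levelSet_eq_zero μ (ℓ j) (b j) u hpos.ne')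
    rintro x ⟨hxP, f, hf, t, ht, rfl⟩
    have hle : ℓ j (f + t • u) ≤ b j := hxP j
    have hval : ℓ j (f + t • u) = b j + t * ℓ j u := by
      simp [map_add, map_smul, hf.2]
    show ℓ j (f + t • u) = b j
    have : 0 ≤ t * ℓ j u := mul_nonneg ht.1 hpos.le
    linarith
  have h2 : ∀ j ∈ S, ∀ k ∈ S, j ≠ k →
      μ (sweep {x : E | (∀ k, ℓ k x ≤ b k) ∧ ℓ j x = b j} u ∩
        sweep {x : E | (∀ k', ℓ k' x ≤ b k') ∧ ℓ k x = b k} u) = 0 := by
    intro j hj k hk hjk
    have hposj : 0 < ℓ j u := (hSmem j).1 hj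
    have hposk : 0 < ℓ k u := (hSmem k).1 hk
    obtain ⟨w, hw⟩ := hind j k hjk hposj hposk
    have hw' : (ℓ k u • ℓ j - ℓ j u • ℓ k) w ≠ 0 := by
      simp only [LinearMap.sub_apply, LinearMap.smul_apply, smul_eq_mul]
      exact sub_ne_zero.2 hw
    refine measure_mono_null ?_ (measure_levelSet_eq_zero μ (ℓ k u • ℓ j - ℓ j u • ℓ k)
      (ℓ k u * b j - ℓ j u * b k) w hw')
    rintro x ⟨⟨f, hf, t, ht, rfl⟩, ⟨f', hf', t', ht', hxx⟩⟩
    have hxx' : f' + t' • u = f + t • u := hxx
    have e1 : ℓ j (f' + t' • u) = ℓ j (f + t • u) := by rw [hxx']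
    have e2 : ℓ k (f' + t' • u) = ℓ k (f + t • u) := by rw [hxx']
    simp only [map_add, map_smul, smul_eq_mul] at e1 e2
    have hfj : ℓ j f = b j := hf.2
    have hfk : ℓ k f' = b k := hf'.2
    have hf'j : ℓ j f' ≤ b j := hf'.1 j
    have hfk' : ℓ k f ≤ b k := hf.1 k
    have htt : t = t' := by
      have ha : t * ℓ j u ≤ t' * ℓ j u := by linarith
      have hb : t' * ℓ k u ≤ t * ℓ k u := by linarith
      have ha' : t ≤ t' := le_of_mul_le_mul_right ha hposj
      have hb' : t' ≤ t := le_of_mul_le_mul_right hb hposk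
      linarith
    show (ℓ k u • ℓ j - ℓ j u • ℓ k) (f + t • u) = ℓ k u * b j - ℓ j u * b k
    simp only [LinearMap.sub_apply, LinearMap.smul_apply, smul_eq_mul, map_add, map_smul]
    subst htt
    have hfk2 : ℓ k f = b k := by linarith
    rw [hfj, hfk2]
    ring
  -- assemble
  rw [hset]
  have hm : ∀ j ∈ S, NullMeasurableSet
      (sweep {x : E | (∀ k, ℓ k x ≤ b k) ∧ ℓ j x = b j} u) μ :=
    fun j _ => (hAc j).measurableSet.nullMeasurableSet
  have hd : AEDisjoint μ P (⋃ j ∈ S, sweep {x : E | (∀ k, ℓ k x ≤ b k) ∧ ℓ j x = b j} u) := by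
    show μ (P ∩ ⋃ j ∈ S, sweep {x : E | (∀ k, ℓ k x ≤ b k) ∧ ℓ j x = b j} u) = 0
    rw [Set.inter_iUnion₂]
    exact (measure_biUnion_null_iff S.countable_toSet).2 h1
  have hmU : NullMeasurableSet
      (⋃ j ∈ S, sweep {x : E | (∀ k, ℓ k x ≤ b k) ∧ ℓ j x = b j} u) μ :=
    (Finset.measurableSet_biUnion S fun j _ => (hAc j).measurableSet).nullMeasurableSet
  rw [measure_union₀ hmU hd]
  congr 1
  refine measure_biUnion_finset₀ ?_ hm
  intro j hj k hk hjk
  exact h2 j hj k hk hjk

end Crest.Agent.S0355.Helper51
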