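import Crest.Agent.Lib.S0355.Helper51A

/-!
# S0355 — package E part 1 (helper51): the volume of the zonotope `Z`

`Z = {|y i| ≤ 1, |y i - y j| ≤ 1} = [0,1]^ι + [0,1]·(-1,…,-1)` has volume `card ι + 1`:
the sweep of the unit cube along `u = -1` is the cube plus the `card ι` prisms over the facets
`y i = 0`, each a linear image of the cube of determinant `|u i| = 1`.  No `sorry` in this file.
-/

set_option autoImplicit false
open MeasureTheory

namespace Crest.Agent.S0355.Helper51
open Crest.Agent.S0355.Helper70

/-- The map `y ↦ update y i 0 + y i • u` multiplies volumes by `|u i|`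
(own copy of the package D statement, so that this file is self-contained). -/
theorem volume_image_update {ι : Type*} [Fintype ι] [DecidableEq ι] (i : ι) (u : ι → ℝ)
    (S : Set (ι → ℝ)) :
    volume ((fun y : ι → ℝ => Function.update y i 0 + y i • u) '' S) =
      ENNReal.ofReal |u i| * volume S := by
  set M : Matrix ι ι ℝ := 1 + Matrix.replicateCol Unit (u - Pi.single i (1 : ℝ)) *
    Matrix.replicateRow Unit (Pi.single i (1 : ℝ)) with hM
  have hdet : M.det = u i := by
    rw [hM, Matrix.det_one_add_replicateCol_mul_replicateRow]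
    simp [dotProduct, Pi.single_apply]
  have hfun : (fun y : ι → ℝ => Function.update y i 0 + y i • u) = ⇑(Matrix.toLin' M) := by
    funext y
    ext j
    have hsum : (M.mulVec y) j = y j + (u j - (Pi.single i (1 : ℝ) : ι → ℝ) j) * y i := by
      simp only [hM, Matrix.add_mulVec, Matrix.one_mulVec, Pi.add_apply]
      congr 1
      simp [Matrix.mulVec, dotProduct, Matrix.mul_apply, Pi.single_apply]
    rw [Matrix.toLin'_apply, hsum]
    by_cases hj : j = i
    · subst hj
      simp
      ring
    · simp [hj]
      ring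
  rw [hfun, Measure.addHaar_image_linearMap, LinearMap.det_toLin', hdet]

/-- The zonotope is the sweep of the unit cube along `(-1,…,-1)`. -/
theorem Z_eq_sweep (ι : Type*) [Fintype ι] [Nonempty ι] :
    {y : ι → ℝ | (∀ i, |y i| ≤ 1) ∧ ∀ i j, |y i - y j| ≤ 1} =
      sweep (Set.Icc (0 : ι → ℝ) 1) (fun _ => (-1 : ℝ)) := by
  ext y
  constructor
  · rintro ⟨h1, h2⟩
    -- the minimum coordinate
    obtain ⟨im, -, hmin⟩ := Finset.exists_min_image (Finset.univ : Finset ι) y
      Finset.univ_nonempty
    have hm : ∀ i, y im ≤ y i := fun i => hmin i (Finset.mem_univ i)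
    set t : ℝ := max 0 (-(y im)) with ht
    have ht0 : 0 ≤ t := le_max_left _ _
    have htm : -(y im) ≤ t := le_max_right _ _
    have ht1 : t ≤ 1 := max_le zero_le_one (by linarith [(abs_le.1 (h1 im)).1])
    refine ⟨fun i => y i + t, ?_, t, ⟨ht0, ht1⟩, ?_⟩
    · constructor
      · intro i
        show (0 : ℝ) ≤ y i + t
        linarith [hm i]
      · intro i
        show y i + t ≤ 1
        rcases max_cases 0 (-(y im)) with ⟨hc, -⟩ | ⟨hc, -⟩
        · rw [ht, hc]; linarith [(abs_le.1 (h1 i)).2]
        · rw [ht, hc]; linarith [(abs_le.1 (h2 i im)).2]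
    · funext i
      simp
  · rintro ⟨c, hc, t, ht, rfl⟩
    have hc0 : ∀ i, 0 ≤ c i := fun i => hc.1 i
    have hc1 : ∀ i, c i ≤ 1 := fun i => hc.2 i
    constructor
    · intro i
      simp only [Pi.add_apply, Pi.smul_apply, smul_eq_mul, mul_neg, mul_one]
      rw [abs_le]
      constructor <;> linarith [hc0 i, hc1 i, ht.1, ht.2]
    · intro i j
      simp only [Pi.add_apply, Pi.smul_apply, smul_eq_mul, mul_neg, mul_one]
      rw [abs_le]
      constructor <;> linarith [hc0 i, hc1 i, hc0 j, hc1 j]

theorem volume_Z (ι : Type*) [Fintype ι] [Nonempty ι] :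
    volume {y : ι → ℝ | (∀ i, |y i| ≤ 1) ∧ ∀ i j, |y i - y j| ≤ 1} =
      ((Fintype.card ι : ENNReal) + 1) := by
  classical
  rw [Z_eq_sweep]
  -- the unit cube as a polyhedron with `2 * card ι` constraints
  set ℓ : ι ⊕ ι → (ι → ℝ) →ₗ[ℝ] ℝ :=
    Sum.elim (fun i => LinearMap.proj i) (fun i => -LinearMap.proj i) with hℓ
  set b : ι ⊕ ι → ℝ := Sum.elim (fun _ => (1 : ℝ)) (fun _ => (0 : ℝ)) with hb
  set u : ι → ℝ := fun _ => (-1 : ℝ) with hu
  have hℓl : ∀ i x, ℓ (Sum.inl i) x = x i := fun i x => rfl
  have hℓr : ∀ i x, ℓ (Sum.inr i) x = -x i := fun i x => rfl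
  have hbl : ∀ i, b (Sum.inl i) = 1 := fun i => rfl
  have hbr : ∀ i, b (Sum.inr i) = 0 := fun i => rfl
  have hcube : {x : ι → ℝ | ∀ j, ℓ j x ≤ b j} = Set.Icc (0 : ι → ℝ) 1 := by
    ext x
    constructor
    · intro hx
      constructor
      · intro i
        have := hx (Sum.inr i)
        rw [hℓr, hbr] at this
        show (0 : ℝ) ≤ x i
        linarith
      · intro i
        have := hx (Sum.inl i)
        rw [hℓl, hbl] at this
        exact this
    · rintro ⟨h0, h1⟩ (i | i)
      · rw [hℓl, hbl]; exact h1 i
      · rw [hℓr, hbr]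
        have : (0 : ℝ) ≤ x i := h0 i
        linarith
  have hK : IsCompact {x : ι → ℝ | ∀ j, ℓ j x ≤ b j} := by
    rw [hcube]; exact isCompact_Icc
  have hind : ∀ j k, j ≠ k → 0 < ℓ j u → 0 < ℓ k u →
      ∃ w, ℓ k u * ℓ j w ≠ ℓ j u * ℓ k w := by
    rintro (i | i) (i' | i') hne hj hk
    · rw [hℓl] at hj; simp [hu] at hj; linarith
    · rw [hℓl] at hj; simp [hu] at hj; linarith
    · rw [hℓl] at hk; simp [hu] at hk; linarith
    · have hii : i ≠ i' := fun h => hne (by rw [h])
      refine ⟨Pi.single i (1 : ℝ), ?_⟩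
      rw [hℓr, hℓr, hℓr, hℓr]
      simp [hu, Ne.symm hii]
  have hmain := sweep_decomp (volume : Measure (ι → ℝ)) ℓ b u hK hind
  rw [hcube] at hmain
  rw [hmain]
  have hvolcube : volume (Set.Icc (0 : ι → ℝ) 1) = 1 := by
    rw [Real.volume_Icc_pi]
    simp
  -- each prism has volume one
  have hprism : ∀ i : ι,
      volume (sweep {x : ι → ℝ | (∀ k, ℓ k x ≤ b k) ∧ ℓ (Sum.inr i) x = b (Sum.inr i)} u) = 1 := by
    intro i
    have hset : sweep {x : ι → ℝ | (∀ k, ℓ k x ≤ b k) ∧ ℓ (Sum.inr i) x = b (Sum.inr i)} u =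
        (fun y : ι → ℝ => Function.update y i 0 + y i • u) '' Set.Icc (0 : ι → ℝ) 1 := by
      ext x
      constructor
      · rintro ⟨f, ⟨hfP, hfi⟩, t, ht, rfl⟩
        have hfc : f ∈ Set.Icc (0 : ι → ℝ) 1 := by rw [← hcube]; exact hfP
        have hfi0 : f i = 0 := by
          rw [hℓr, hbr] at hfi
          linarith
        refine ⟨Function.update f i t, ?_, ?_⟩
        · constructor
          · intro k
            by_cases hk : k = i
            · subst hk; simp [ht.1]
            · simp only [Function.update_of_ne hk]; exact hfc.1 k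
          · intro k
            by_cases hk : k = i
            · subst hk; simp [ht.2]
            · simp only [Function.update_of_ne hk]; exact hfc.2 k
        · have : Function.update (Function.update f i t) i 0 = f := by
            rw [Function.update_idem, ← hfi0, Function.update_eq_self]
          simp only [this, Function.update_self]
      · rintro ⟨y, hy, rfl⟩
        refine ⟨Function.update y i 0, ⟨?_, ?_⟩, y i, ⟨hy.1 i, hy.2 i⟩, rfl⟩
        · have hmem : Function.update y i 0 ∈ Set.Icc (0 : ι → ℝ) 1 := by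
            constructor
            · intro k
              by_cases hk : k = i
              · subst hk; simp
              · simp only [Function.update_of_ne hk]; exact hy.1 k
            · intro k
              by_cases hk : k = i
              · subst hk; simp
              · simp only [Function.update_of_ne hk]; exact hy.2 k
          rw [← hcube] at hmem
          exact hmem
        · rw [hℓr, hbr]
          simp
    rw [hset, volume_image_update, hvolcube]
    simp [hu]
  -- the sum over the upper facets
  have hsum : ∑ j ∈ Finset.univ.filter (fun j => 0 < ℓ j u),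
      volume (sweep {x : ι → ℝ | (∀ k, ℓ k x ≤ b k) ∧ ℓ j x = b j} u) = (Fintype.card ι : ENNReal) := by
    rw [Finset.sum_filter, Fintype.sum_sum_type]
    have hl : ∀ i : ι, ¬ (0 < ℓ (Sum.inl i) u) := by
      intro i; rw [hℓl]; simp [hu]
    have hr : ∀ i : ι, 0 < ℓ (Sum.inr i) u := by
      intro i; rw [hℓr]; simp [hu]
    simp only [hl, hr, if_false, if_true, Finset.sum_const_zero, zero_add, hprism]
    simp
  rw [hsum, hvolcube, add_comm]

end Crest.Agent.S0355.Helper51
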