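import Crest.Agent.Lib.S0355.Helper70Defs

/-!
# S0355 — package C (helper6): volumes of simplices, of `Kpi` and of the cylinders `Cyl i`

All statements are the exact `Spec` statements of the blueprint of helper70; complete proofs.
-/

set_option autoImplicit false
open MeasureTheory

namespace Crest.Agent.S0355.Helper6
open Crest.Agent.S0355.Helper70

/-- The simplex of radius `r` on an arbitrary finite index type. -/
def Simp (ι : Type*) [Fintype ι] (r : ℝ) : Set (ι → ℝ) :=
  {y | (∀ i, 0 ≤ y i) ∧ ∑ i, y i ≤ r}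

theorem mem_Simp {ι : Type*} [Fintype ι] {r : ℝ} {y : ι → ℝ} :
    y ∈ Simp ι r ↔ (∀ i, 0 ≤ y i) ∧ ∑ i, y i ≤ r := Iff.rfl

theorem Simp_eq_empty {ι : Type*} [Fintype ι] {r : ℝ} (hr : r < 0) : Simp ι r = ∅ := by
  ext y
  simp only [mem_Simp, Set.mem_empty_iff_false, iff_false, not_and, not_le]
  intro h
  exact lt_of_lt_of_le hr (Finset.sum_nonneg fun i _ => h i)

/-- The slice set used in the induction is closed. -/
theorem isClosed_slice (n : ℕ) (r : ℝ) :
    IsClosed {p : ℝ × (Fin n → ℝ) | 0 ≤ p.1 ∧ p.2 ∈ Simp (Fin n) (r - p.1)} := by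
  have h : {p : ℝ × (Fin n → ℝ) | 0 ≤ p.1 ∧ p.2 ∈ Simp (Fin n) (r - p.1)} =
      {p : ℝ × (Fin n → ℝ) | 0 ≤ p.1} ∩ ((⋂ i, {p : ℝ × (Fin n → ℝ) | 0 ≤ p.2 i}) ∩
        {p : ℝ × (Fin n → ℝ) | ∑ i, p.2 i ≤ r - p.1}) := by
    ext p
    simp [mem_Simp]
  rw [h]
  refine (isClosed_le continuous_const continuous_fst).inter ((isClosed_iInter fun i => ?_).inter ?_)
  · exact isClosed_le continuous_const ((continuous_apply i).comp continuous_snd)
  · exact isClosed_le (continuous_finsetSum _ fun i _ => (continuous_apply i).comp continuous_snd)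
      (continuous_const.sub continuous_fst)

theorem integral_pow_sub (n : ℕ) (r : ℝ) :
    ∫ s in (0 : ℝ)..r, (r - s) ^ n / (n.factorial : ℝ) = r ^ (n + 1) / ((n + 1).factorial : ℝ) := by
  have h1 : ∀ s ∈ Set.uIcc (0 : ℝ) r,
      HasDerivAt (fun s : ℝ => -((r - s) ^ (n + 1) / ((n + 1).factorial : ℝ)))
        ((r - s) ^ n / (n.factorial : ℝ)) s := by
    intro s _
    have hd : HasDerivAt (fun s : ℝ => (r - s) ^ (n + 1)) (((n + 1 : ℕ) : ℝ) * (r - s) ^ n * (-1)) s := by
      have := ((hasDerivAt_id s).const_sub r).fun_pow (n + 1)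
      simpa using this
    have hthis := (hd.div_const ((n + 1).factorial : ℝ)).neg
    have hf : ((n + 1).factorial : ℝ) = ((n + 1 : ℕ) : ℝ) * (n.factorial : ℝ) := by
      rw [Nat.factorial_succ]; push_cast; ring
    have hn : (n.factorial : ℝ) ≠ 0 := by positivity
    have hn1 : ((n + 1 : ℕ) : ℝ) ≠ 0 := by positivity
    have key : -(((n + 1 : ℕ) : ℝ) * (r - s) ^ n * -1 / ((n + 1).factorial : ℝ)) =
        (r - s) ^ n / (n.factorial : ℝ) := by
      rw [hf]
      field_simp
    rw [← key]
    exact hthis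
  have hint : IntervalIntegrable (fun s : ℝ => (r - s) ^ n / (n.factorial : ℝ)) volume 0 r := by
    apply Continuous.intervalIntegrable
    fun_prop
  rw [intervalIntegral.integral_eq_sub_of_hasDerivAt h1 hint]
  simp

/-- Volume of the simplex of radius `r ≥ 0` on `Fin n`. -/
theorem volume_Simp_fin (n : ℕ) : ∀ r : ℝ, 0 ≤ r →
    volume (Simp (Fin n) r) = ENNReal.ofReal (r ^ n / (n.factorial : ℝ)) := by
  induction n with
  | zero =>
    intro r hr
    have h : Simp (Fin 0) r = Set.univ := by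
      ext y
      simp [mem_Simp, hr]
    rw [h, volume_pi, Measure.pi_empty_univ]
    simp
  | succ n ih =>
    intro r hr
    have hmp := volume_preserving_piFinSuccAbove (fun _ : Fin (n + 1) => ℝ) 0
    have hS : Simp (Fin (n + 1)) r =
        (MeasurableEquiv.piFinSuccAbove (fun _ : Fin (n + 1) => ℝ) 0) ⁻¹'
          {p : ℝ × (Fin n → ℝ) | 0 ≤ p.1 ∧ p.2 ∈ Simp (Fin n) (r - p.1)} := by
      ext y
      simp only [mem_Simp, Set.mem_preimage, Set.mem_ofPred_eq, MeasurableEquiv.piFinSuccAbove_apply,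
        Fin.insertNthEquiv_zero, Fin.consEquiv_symm_apply, Fin.forall_fin_succ, Fin.sum_univ_succ,
        Fin.tail]
      constructor
      · rintro ⟨⟨h0, h1⟩, h2⟩
        exact ⟨h0, h1, by linarith⟩
      · rintro ⟨h0, h1, h2⟩
        exact ⟨⟨h0, h1⟩, by linarith⟩
    rw [hS, hmp.measure_preimage_equiv, Measure.volume_eq_prod,
      Measure.prod_apply (isClosed_slice n r).measurableSet]
    have hslice : ∀ s : ℝ, volume (Prod.mk s ⁻¹'
        {p : ℝ × (Fin n → ℝ) | 0 ≤ p.1 ∧ p.2 ∈ Simp (Fin n) (r - p.1)}) =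
        (Set.Icc (0 : ℝ) r).indicator
          (fun s => ENNReal.ofReal ((r - s) ^ n / (n.factorial : ℝ))) s := by
      intro s
      by_cases hs : s ∈ Set.Icc (0 : ℝ) r
      · rw [Set.indicator_of_mem hs, ← ih (r - s) (by linarith [hs.2])]
        congr 1
        ext z
        simp [hs.1]
      · rw [Set.indicator_of_notMem hs]
        by_cases h0 : 0 ≤ s
        · have hlt : r - s < 0 := by
            by_contra hcon
            exact hs ⟨h0, by linarith⟩
          have : Prod.mk s ⁻¹'
              {p : ℝ × (Fin n → ℝ) | 0 ≤ p.1 ∧ p.2 ∈ Simp (Fin n) (r - p.1)} = ∅ := by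
            ext z
            simp [Simp_eq_empty hlt]
          rw [this, measure_empty]
        · have : Prod.mk s ⁻¹'
              {p : ℝ × (Fin n → ℝ) | 0 ≤ p.1 ∧ p.2 ∈ Simp (Fin n) (r - p.1)} = ∅ := by
            ext z
            simp [h0]
          rw [this, measure_empty]
    simp_rw [hslice]
    rw [lintegral_indicator measurableSet_Icc]
    have hcont : Continuous (fun s : ℝ => (r - s) ^ n / (n.factorial : ℝ)) := by fun_prop
    rw [← ofReal_integral_eq_lintegral_ofReal (hcont.integrableOn_Icc)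
      (ae_restrict_of_forall_mem measurableSet_Icc fun s hs => by
        have : 0 ≤ r - s := by linarith [hs.2]
        positivity)]
    rw [integral_Icc_eq_integral_Ioc, ← intervalIntegral.integral_of_le hr, integral_pow_sub]

/-- Volume of the simplex of radius `r ≥ 0` on an arbitrary finite index type. -/
theorem volume_Simp (ι : Type*) [Fintype ι] (r : ℝ) (hr : 0 ≤ r) :
    volume (Simp ι r) =
      ENNReal.ofReal (r ^ (Fintype.card ι) / ((Fintype.card ι).factorial : ℝ)) := by
  classical
  have hmp := volume_measurePreserving_piCongrLeft (fun _ : Fin (Fintype.card ι) => ℝ)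
    (Fintype.equivFin ι)
  have hS : Simp ι r = (MeasurableEquiv.piCongrLeft (fun _ : Fin (Fintype.card ι) => ℝ)
      (Fintype.equivFin ι)) ⁻¹' Simp (Fin (Fintype.card ι)) r := by
    ext y
    simp only [mem_Simp, Set.mem_preimage, MeasurableEquiv.coe_piCongrLeft]
    rw [← (Fintype.equivFin ι).forall_congr_right, ← Equiv.sum_comp (Fintype.equivFin ι)]
    simp only [Equiv.piCongrLeft_apply_apply]
  rw [hS, hmp.measure_preimage_equiv, volume_Simp_fin _ r hr]

/-- **Package C, `volume_simplex`** (exact `Spec` statement). -/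
theorem volume_simplex (ι : Type*) [Fintype ι] :
    volume {y : ι → ℝ | (∀ i, 0 ≤ y i) ∧ ∑ i, y i ≤ 1} =
      ENNReal.ofReal (1 / ((Fintype.card ι).factorial : ℝ)) := by
  have h := volume_Simp ι 1 zero_le_one
  rw [one_pow] at h
  exact h

/-- Splitting the coordinates along a predicate: the volume of a "product" set is the product of
the volumes. -/
theorem volume_split {ι : Type*} [Fintype ι] (p : ι → Prop) [DecidablePred p]
    (A : Set ({i // p i} → ℝ)) (B : Set ({i // ¬ p i} → ℝ)) :
    volume {y : ι → ℝ | (fun i : {i // p i} => y i) ∈ A ∧ (fun i : {i // ¬ p i} => y i) ∈ B} =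
      volume A * volume B := by
  have hmp := volume_preserving_piEquivPiSubtypeProd (fun _ : ι => ℝ) p
  have hS : {y : ι → ℝ | (fun i : {i // p i} => y i) ∈ A ∧ (fun i : {i // ¬ p i} => y i) ∈ B} =
      (MeasurableEquiv.piEquivPiSubtypeProd (fun _ : ι => ℝ) p) ⁻¹' (A ×ˢ B) := by
    ext y
    rfl
  rw [hS, hmp.measure_preimage_equiv, Measure.volume_eq_prod, Measure.prod_prod]

/-- The two-block product of simplices on a finite index type split by a predicate. -/
def TwoBlock (ι : Type*) [Fintype ι] (q : ι → Prop) [DecidablePred q] : Set (ι → ℝ) :=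
  {y | (∀ i, 0 ≤ y i) ∧ ∑ i, (if q i then y i else 0) ≤ 1 ∧ ∑ i, (if q i then 0 else y i) ≤ 1}

theorem sum_ite_eq_sum_subtype {ι : Type*} [Fintype ι] (q : ι → Prop) [DecidablePred q]
    (y : ι → ℝ) : ∑ i, (if q i then y i else 0) = ∑ i : {i // q i}, y i := by
  rw [← Finset.sum_filter]
  exact Finset.sum_subtype _ (by simp) y

theorem sum_ite_eq_sum_subtype_not {ι : Type*} [Fintype ι] (q : ι → Prop) [DecidablePred q]
    (y : ι → ℝ) : ∑ i, (if q i then 0 else y i) = ∑ i : {i // ¬ q i}, y i := by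
  rw [← sum_ite_eq_sum_subtype (fun i => ¬ q i) y]
  refine Finset.sum_congr rfl fun i _ => ?_
  by_cases h : q i <;> simp [h]

theorem volume_TwoBlock (ι : Type*) [Fintype ι] (q : ι → Prop) [DecidablePred q] :
    volume (TwoBlock ι q) =
      ENNReal.ofReal (1 / ((Fintype.card {i // q i}).factorial : ℝ)) *
        ENNReal.ofReal (1 / ((Fintype.card {i // ¬ q i}).factorial : ℝ)) := by
  have hS : TwoBlock ι q = {y : ι → ℝ | (fun i : {i // q i} => y i) ∈ Simp {i // q i} 1 ∧
      (fun i : {i // ¬ q i} => y i) ∈ Simp {i // ¬ q i} 1} := by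
    ext y
    simp only [TwoBlock, Set.mem_ofPred_eq, mem_Simp, sum_ite_eq_sum_subtype,
      sum_ite_eq_sum_subtype_not]
    constructor
    · rintro ⟨h0, h1, h2⟩
      exact ⟨⟨fun i => h0 i, h1⟩, fun i => h0 i, h2⟩
    · rintro ⟨⟨h0, h1⟩, h0', h2⟩
      refine ⟨fun i => ?_, h1, h2⟩
      by_cases h : q i
      · exact h0 ⟨i, h⟩
      · exact h0' ⟨i, h⟩
  rw [hS, volume_split]
  have h1 := volume_simplex {i // q i}
  have h2 := volume_simplex {i // ¬ q i}
  rw [show Simp {i // q i} 1 = {y : {i // q i} → ℝ | (∀ i, 0 ≤ y i) ∧ ∑ i, y i ≤ 1} from rfl,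
    show Simp {i // ¬ q i} 1 = {y : {i // ¬ q i} → ℝ | (∀ i, 0 ≤ y i) ∧ ∑ i, y i ≤ 1} from rfl,
    h1, h2]

theorem Kpi_eq : Kpi = TwoBlock (Fin 20) (fun i => i.val < 10) := by
  ext y
  simp only [Kpi, TwoBlock, B1, B2, Set.mem_ofPred_eq, Finset.sum_filter, ite_not]

/-- **Package C, `volume_Kpi`** (exact `Spec` statement). -/
theorem volume_Kpi :
    volume Kpi = ENNReal.ofReal (1 / (((10 : ℕ).factorial : ℝ) * ((10 : ℕ).factorial : ℝ))) := by
  rw [Kpi_eq, volume_TwoBlock]
  have h1 : Fintype.card {i : Fin 20 // i.val < 10} = 10 := by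
    rw [Fintype.card_subtype]; decide
  have h2 : Fintype.card {i : Fin 20 // ¬ i.val < 10} = 10 := by
    rw [Fintype.card_subtype]; decide
  rw [h1, h2, ← ENNReal.ofReal_mul (by positivity)]
  congr 1
  field_simp

/-- Sums of a coordinatewise function of `update y i 0` that kills the `i`-th term. -/
theorem sum_update_zero {ι : Type*} [Fintype ι] [DecidableEq ι] (i : ι) (g : ι → ℝ → ℝ)
    (hg : g i 0 = 0) (y : ι → ℝ) :
    ∑ j, g j (Function.update y i 0 j) = ∑ j : {j // ¬ j = i}, g j (y j) := by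
  rw [← Fintype.sum_subtype_add_sum_subtype (fun j => j = i)
    (fun j => g j (Function.update y i 0 j))]
  have h1 : ∀ j : {j // j = i}, g j (Function.update y i 0 j) = 0 := fun j => by
    rw [j.2, Function.update_self, hg]
  have h2 : ∀ j : {j // ¬ j = i}, g j (Function.update y i 0 j) = g j (y j) := fun j => by
    rw [Function.update_of_ne j.2]
  simp only [h1, h2, Finset.sum_const_zero, zero_add]

theorem Cyl_eq (i : Fin 20) :
    Cyl i = {y : Fin 20 → ℝ | (fun j : {j // j = i} => y j) ∈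
        @Simp {j : Fin 20 // j = i} (Subtype.fintype fun j => j = i) 1 ∧
      (fun j : {j // ¬ j = i} => y j) ∈
        TwoBlock {j : Fin 20 // ¬ j = i} (fun j => j.val.val < 10)} := by
  ext y
  have hs1 : ∑ j ∈ B1, Function.update y i 0 j =
      ∑ j : {j : Fin 20 // ¬ j = i}, (if j.val.val < 10 then y j else 0) := by
    rw [B1, Finset.sum_filter]
    exact sum_update_zero i (fun j t => if j.val < 10 then t else 0) (by simp) y
  have hs2 : ∑ j ∈ B2, Function.update y i 0 j =
      ∑ j : {j : Fin 20 // ¬ j = i}, (if j.val.val < 10 then 0 else y j) := by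
    rw [B2, Finset.sum_filter]
    simp only [ite_not]
    exact sum_update_zero i (fun j t => if j.val < 10 then 0 else t) (by simp) y
  simp only [Cyl, Kpi, TwoBlock, Set.mem_ofPred_eq, mem_Simp, hs1, hs2]
  rw [← Finset.sum_subtype {i} (by simp) y, Finset.sum_singleton]
  constructor
  · rintro ⟨h0, h1, hpos, h2, h3⟩
    refine ⟨⟨fun j => ?_, h1⟩, fun j => ?_, h2, h3⟩
    · rw [j.2]; exact h0
    · have := hpos j
      rwa [Function.update_of_ne j.2] at this
  · rintro ⟨⟨h0, h1⟩, hpos, h2, h3⟩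
    refine ⟨h0 ⟨i, rfl⟩, h1, fun j => ?_, h2, h3⟩
    by_cases hj : j = i
    · rw [hj, Function.update_self]
    · rw [Function.update_of_ne hj]
      exact hpos ⟨j, hj⟩

theorem card_block (i : Fin 20) :
    (Fintype.card {j : {j : Fin 20 // ¬ j = i} // j.val.val < 10}).factorial *
      (Fintype.card {j : {j : Fin 20 // ¬ j = i} // ¬ j.val.val < 10}).factorial =
        (9 : ℕ).factorial * (10 : ℕ).factorial := by
  revert i
  decide

/-- The simplex on a one-point index type (any `Fintype` instance) has volume one. -/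
theorem volume_Simp_unique {κ : Type*} [Fintype κ] [Unique κ] : volume (Simp κ 1) = 1 := by
  have h := volume_simplex κ
  rw [Fintype.card_unique, Nat.factorial_one, Nat.cast_one, div_one, ENNReal.ofReal_one] at h
  exact h

/-- **Package C, `volume_Cyl`** (exact `Spec` statement). -/
theorem volume_Cyl (i : Fin 20) :
    volume (Cyl i) = ENNReal.ofReal (1 / (((9 : ℕ).factorial : ℝ) * ((10 : ℕ).factorial : ℝ))) := by
  rw [Cyl_eq, volume_split, volume_TwoBlock,
    @volume_Simp_unique {j : Fin 20 // j = i} (Subtype.fintype fun j => j = i) _, one_mul,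
    ← ENNReal.ofReal_mul (by positivity)]
  congr 1
  have hcb := card_block i
  have hcb' : ((Fintype.card {j : {j : Fin 20 // ¬ j = i} // j.val.val < 10}).factorial : ℝ) *
      ((Fintype.card {j : {j : Fin 20 // ¬ j = i} // ¬ j.val.val < 10}).factorial : ℝ) =
        ((9 : ℕ).factorial : ℝ) * ((10 : ℕ).factorial : ℝ) := by
    exact_mod_cast hcb
  rw [← hcb']
  field_simp

end Crest.Agent.S0355.Helper6
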