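import Mathlib

/-!
# S0355 — shared definitions (helper70)

`K = T₁₀ × T₁₀ ⊆ ℝ²⁰` (blocks `i < 10`, `10 ≤ i`), written in plain `Fin 20 → ℝ` coordinates.
No `sorry` in this file.
-/

set_option autoImplicit false
open MeasureTheory

namespace Crest.Agent.S0355.Helper70

/-- The sweep `K + [0,1]·u` of a set along a vector. -/
def sweep {E : Type*} [AddCommGroup E] [Module ℝ E] (K : Set E) (u : E) : Set E :=
  Set.image2 (fun x (t : ℝ) => x + t • u) K (Set.Icc (0 : ℝ) 1)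

/-- First block of coordinates. -/
def B1 : Finset (Fin 20) := Finset.univ.filter (fun i : Fin 20 => i.val < 10)

/-- Second block of coordinates. -/
def B2 : Finset (Fin 20) := Finset.univ.filter (fun i : Fin 20 => ¬ i.val < 10)

/-- `T₁₀ × T₁₀` in coordinates: all coordinates nonnegative, each block sums to at most one. -/
def Kpi : Set (Fin 20 → ℝ) :=
  {y | (∀ i, 0 ≤ y i) ∧ ∑ i ∈ B1, y i ≤ 1 ∧ ∑ i ∈ B2, y i ≤ 1}

/-- The cylinder `[0,1] × (facet y_i = 0)`: `y i ∈ [0,1]` and `y` with its `i`-th coordinate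
zeroed lies in `Kpi`. -/
def Cyl (i : Fin 20) : Set (Fin 20 → ℝ) :=
  {y | 0 ≤ y i ∧ y i ≤ 1 ∧ Function.update y i 0 ∈ Kpi}

/-- The candidate projection body (zonotope), in coordinates: `|x i| ≤ a` and `|x i - x j| ≤ a`
for `i, j` in the same block. -/
def PiSet (a : ℝ) : Set (Fin 20 → ℝ) :=
  {x | (∀ i, |x i| ≤ a) ∧ ∀ i j : Fin 20, (i.val < 10 ↔ j.val < 10) → |x i - x j| ≤ a}

/-- The support-type function `H(u) = ∑ |u i| + |∑_{B1} u| + |∑_{B2} u|`. -/
def Hfun (u : Fin 20 → ℝ) : ℝ :=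
  ∑ i, |u i| + |∑ i ∈ B1, u i| + |∑ i ∈ B2, u i|

end Crest.Agent.S0355.Helper70
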