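import Crest.Agent.Lib.S0355.Helper88E
import Crest.Agent.Lib.S0355.Helper51E

/-!
# S0355, package E part 2 (helper88): `volume_PiSet`, exact Spec statement

`Helper88.volume_PiSet_of_volume_Z` (block split + scaling) applied to `Helper51.volume_Z`.
-/

set_option autoImplicit false
open MeasureTheory

namespace Crest.Agent.S0355.Helper88
open Crest.Agent.S0355.Helper70

/-- PACKAGE E part 2, exact Spec statement. -/
theorem volume_PiSet (a : ℝ) (ha : 0 < a) :
    volume (PiSet a) = ENNReal.ofReal (121 * a ^ 20) :=
  volume_PiSet_of_volume_Z (fun ι _ _ => Crest.Agent.S0355.Helper51.volume_Z ι) a ha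

end Crest.Agent.S0355.Helper88
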