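import Crest.Agent.Lib.S0355.Helper70Shadow
import Crest.Agent.Lib.S0355.Helper51A
import Crest.Agent.Lib.S0355.Helper6C
import Crest.Agent.Lib.S0355.Helper43D
import Crest.Agent.Lib.S0355.Helper14F
import Crest.Agent.Lib.S0355.Helper88PiSet

/-!
# S0355 — assembly (helper70)

`K = T₁₀ × T₁₀`; its projection body is the zonotope `PiSet a`, `a = 1/(9!·10!)`.

Packages: A `Helper51A` (helper51), B `Helper70Shadow` (helper70), C `Helper6C` (helper6),
D `Helper43D` (helper43), E `Helper51E` (helper51) + `Helper88E`/`Helper88PiSet` (helper88),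
F `Helper14F` (helper14).
-/

set_option autoImplicit false
open MeasureTheory

namespace Crest.Agent.S0355.Helper70

/-- The body `K = T₁₀ × T₁₀` inside `EuclideanSpace ℝ (Fin 20)`. -/
def KE : Set (EuclideanSpace ℝ (Fin 20)) := {x | x.ofLp ∈ Kpi}

/-- The constant `a = 1/(9!·10!)`. -/
noncomputable def aConst : ℝ := 1 / (((9 : ℕ).factorial : ℝ) * ((10 : ℕ).factorial : ℝ))

theorem aConst_pos : 0 < aConst := by
  unfold aConst
  positivity

theorem volume_ofLp_preimage (S : Set (Fin 20 → ℝ)) :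
    volume {x : EuclideanSpace ℝ (Fin 20) | x.ofLp ∈ S} = volume S :=
  (EuclideanSpace.volume_preserving_symm_measurableEquiv_toLp (Fin 20)).measure_preimage_equiv S

theorem mem_B1_or_B2 (i : Fin 20) : i ∈ B1 ∨ i ∈ B2 := by
  by_cases h : i.val < 10
  · left; simp [B1, h]
  · right; simp only [B2, Finset.mem_filter, Finset.mem_univ, true_and]; exact h

theorem card_B1 : B1.card = 10 := by decide
theorem card_B2 : B2.card = 10 := by decide

theorem sum_B1_add_sum_B2 (f : Fin 20 → ℝ) : ∑ i ∈ B1, f i + ∑ i ∈ B2, f i = ∑ i, f i := by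
  unfold B1 B2
  exact Finset.sum_filter_add_sum_filter_not _ _ _

theorem isClosed_Kpi : IsClosed Kpi := by
  have h1 : IsClosed {y : Fin 20 → ℝ | ∀ i, 0 ≤ y i} := by
    simp only [Set.ofPred_forall]
    exact isClosed_iInter fun i => isClosed_le continuous_const (continuous_apply i)
  have h2 : IsClosed {y : Fin 20 → ℝ | ∑ i ∈ B1, y i ≤ 1} :=
    isClosed_le (continuous_finsetSum _ fun i _ => continuous_apply i) continuous_const
  have h3 : IsClosed {y : Fin 20 → ℝ | ∑ i ∈ B2, y i ≤ 1} :=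
    isClosed_le (continuous_finsetSum _ fun i _ => continuous_apply i) continuous_const
  exact h1.inter (h2.inter h3)

theorem Kpi_le_one {y : Fin 20 → ℝ} (hy : y ∈ Kpi) (i : Fin 20) : y i ≤ 1 := by
  obtain ⟨h0, h1, h2⟩ := hy
  rcases mem_B1_or_B2 i with hi | hi
  · exact (Finset.single_le_sum (f := y) (fun j _ => h0 j) hi).trans h1
  · exact (Finset.single_le_sum (f := y) (fun j _ => h0 j) hi).trans h2

theorem isCompact_Kpi : IsCompact Kpi := by
  refine IsCompact.of_isClosed_subset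
    (isCompact_univ_pi fun _ : Fin 20 => isCompact_Icc (a := (0 : ℝ)) (b := 1)) isClosed_Kpi ?_
  intro y hy i _
  exact ⟨hy.1 i, Kpi_le_one hy i⟩

theorem KE_eq_image : KE = WithLp.toLp 2 '' Kpi := by
  ext x
  constructor
  · intro hx
    exact ⟨x.ofLp, hx, rfl⟩
  · rintro ⟨y, hy, rfl⟩
    exact hy

theorem isCompact_KE : IsCompact KE := by
  rw [KE_eq_image]
  exact isCompact_Kpi.image (PiLp.continuous_toLp 2 _)

theorem convex_KE : Convex ℝ KE := by
  intro x hx y hy a b ha hb hab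
  obtain ⟨hx0, hx1, hx2⟩ := hx
  obtain ⟨hy0, hy1, hy2⟩ := hy
  refine ⟨fun i => ?_, ?_, ?_⟩
  · have := hx0 i
    have := hy0 i
    simp only [WithLp.ofLp_add, WithLp.ofLp_smul, Pi.add_apply, Pi.smul_apply, smul_eq_mul]
    positivity
  · simp only [WithLp.ofLp_add, WithLp.ofLp_smul, Pi.add_apply, Pi.smul_apply, smul_eq_mul,
      Finset.sum_add_distrib, ← Finset.mul_sum]
    nlinarith
  · simp only [WithLp.ofLp_add, WithLp.ofLp_smul, Pi.add_apply, Pi.smul_apply, smul_eq_mul,
      Finset.sum_add_distrib, ← Finset.mul_sum]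
    nlinarith

theorem interior_KE_nonempty : (interior KE).Nonempty := by
  refine ⟨WithLp.toLp 2 (fun _ => (1 / 20 : ℝ)), ?_⟩
  refine interior_maximal ?_ Metric.isOpen_ball (Metric.mem_ball_self (by norm_num : (0 : ℝ) < 1 / 20))
  intro x hx
  rw [Metric.mem_ball, dist_eq_norm] at hx
  have hcoord : ∀ i, |x.ofLp i - 1 / 20| < 1 / 20 := by
    intro i
    have h := PiLp.norm_apply_le (x - WithLp.toLp 2 (fun _ => (1 / 20 : ℝ))) i
    simp only [PiLp.sub_apply, Real.norm_eq_abs] at h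
    exact lt_of_le_of_lt h hx
  have hlo : ∀ i, 0 ≤ x.ofLp i := fun i => by
    have := abs_lt.mp (hcoord i); linarith
  have hhi : ∀ i, x.ofLp i ≤ 1 / 10 := fun i => by
    have := abs_lt.mp (hcoord i); linarith
  refine ⟨hlo, ?_, ?_⟩
  · calc ∑ i ∈ B1, x.ofLp i ≤ ∑ _i ∈ B1, (1 / 10 : ℝ) := Finset.sum_le_sum fun i _ => hhi i
      _ = 1 := by rw [Finset.sum_const, card_B1]; norm_num
  · calc ∑ i ∈ B2, x.ofLp i ≤ ∑ _i ∈ B2, (1 / 10 : ℝ) := Finset.sum_le_sum fun i _ => hhi i
      _ = 1 := by rw [Finset.sum_const, card_B2]; norm_num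

theorem sweep_KE (u : EuclideanSpace ℝ (Fin 20)) :
    sweep KE u = {x | x.ofLp ∈ sweep Kpi u.ofLp} := by
  ext x
  simp only [sweep, Set.mem_image2, Set.mem_ofPred_eq]
  constructor
  · rintro ⟨k, hk, t, ht, rfl⟩
    exact ⟨k.ofLp, hk, t, ht, rfl⟩
  · rintro ⟨k, hk, t, ht, h⟩
    refine ⟨WithLp.toLp 2 k, hk, t, ht, ?_⟩
    apply WithLp.ofLp_injective
    simpa using h

/-- The linear functionals cutting out `Kpi`. -/
noncomputable def ell : Fin 20 ⊕ Bool → (Fin 20 → ℝ) →ₗ[ℝ] ℝ
  | Sum.inl i => -(LinearMap.proj i)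
  | Sum.inr false => ∑ i ∈ B1, LinearMap.proj i
  | Sum.inr true => ∑ i ∈ B2, LinearMap.proj i

/-- The right-hand sides. -/
def bb : Fin 20 ⊕ Bool → ℝ
  | Sum.inl _ => 0
  | Sum.inr _ => 1

theorem ell_inl (i : Fin 20) (x : Fin 20 → ℝ) : ell (Sum.inl i) x = - x i := by
  simp [ell]

theorem ell_false (x : Fin 20 → ℝ) : ell (Sum.inr false) x = ∑ i ∈ B1, x i := by
  simp [ell]

theorem ell_true (x : Fin 20 → ℝ) : ell (Sum.inr true) x = ∑ i ∈ B2, x i := by
  simp [ell]

theorem Kpi_eq : Kpi = {x : Fin 20 → ℝ | ∀ j, ell j x ≤ bb j} := by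
  ext x
  simp only [Kpi, Set.mem_ofPred_eq, Sum.forall, Bool.forall_bool, ell_inl, ell_false, ell_true,
    bb, neg_nonpos]

theorem ell_inl_single (i i' : Fin 20) :
    ell (Sum.inl i) (Pi.single i' (1 : ℝ)) = if i = i' then -1 else 0 := by
  rw [ell_inl, Pi.single_apply]
  split_ifs <;> simp

theorem ell_false_single (i' : Fin 20) :
    ell (Sum.inr false) (Pi.single i' (1 : ℝ)) = if i' ∈ B1 then 1 else 0 := by
  rw [ell_false]
  simp only [Pi.single_apply]
  rw [Finset.sum_ite_eq']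

theorem ell_true_single (i' : Fin 20) :
    ell (Sum.inr true) (Pi.single i' (1 : ℝ)) = if i' ∈ B2 then 1 else 0 := by
  rw [ell_true]
  simp only [Pi.single_apply]
  rw [Finset.sum_ite_eq']

theorem ell_indep (u : Fin 20 → ℝ) :
    ∀ j k, j ≠ k → 0 < ell j u → 0 < ell k u → ∃ w, ell k u * ell j w ≠ ell j u * ell k w := by
  have e0 : (0 : Fin 20) ∈ B1 := by decide
  have e1 : (1 : Fin 20) ∈ B1 := by decide
  have e10 : (10 : Fin 20) ∈ B2 := by decide
  have e11 : (11 : Fin 20) ∈ B2 := by decide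
  have n0 : (0 : Fin 20) ∉ B2 := by decide
  have n10 : (10 : Fin 20) ∉ B1 := by decide
  have pick1 : ∀ i : Fin 20, ∃ i'' ∈ B1, i ≠ i'' := by
    intro i
    by_cases h : i = 0
    · exact ⟨1, e1, by rw [h]; decide⟩
    · exact ⟨0, e0, h⟩
  have pick2 : ∀ i : Fin 20, ∃ i'' ∈ B2, i ≠ i'' := by
    intro i
    by_cases h : i = 10
    · exact ⟨11, e11, by rw [h]; decide⟩
    · exact ⟨10, e10, h⟩
  rintro (i | c) (i' | c') hne hj hk
  · -- two coordinate facets
    have hii : i' ≠ i := fun h => hne (by rw [h])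
    refine ⟨Pi.single i 1, ?_⟩
    rw [ell_inl_single, ell_inl_single, if_pos rfl, if_neg hii]
    intro h
    linarith
  · -- coordinate facet and sum facet
    cases c'
    · obtain ⟨i'', hi'', hne''⟩ := pick1 i
      refine ⟨Pi.single i'' 1, ?_⟩
      rw [ell_inl_single, ell_false_single, if_pos hi'', if_neg hne'']
      intro h
      linarith
    · obtain ⟨i'', hi'', hne''⟩ := pick2 i
      refine ⟨Pi.single i'' 1, ?_⟩
      rw [ell_inl_single, ell_true_single, if_pos hi'', if_neg hne'']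
      intro h
      linarith
  · -- sum facet and coordinate facet
    cases c
    · obtain ⟨i'', hi'', hne''⟩ := pick1 i'
      refine ⟨Pi.single i'' 1, ?_⟩
      rw [ell_inl_single, ell_false_single, if_pos hi'', if_neg hne'']
      intro h
      linarith
    · obtain ⟨i'', hi'', hne''⟩ := pick2 i'
      refine ⟨Pi.single i'' 1, ?_⟩
      rw [ell_inl_single, ell_true_single, if_pos hi'', if_neg hne'']
      intro h
      linarith
  · -- two sum facets
    cases c <;> cases c'
    · exact absurd rfl hne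
    · refine ⟨Pi.single 0 1, ?_⟩
      rw [ell_false_single, ell_true_single, if_pos e0, if_neg n0]
      intro h
      linarith
    · refine ⟨Pi.single 0 1, ?_⟩
      rw [ell_false_single, ell_true_single, if_pos e0, if_neg n0]
      intro h
      linarith
    · exact absurd rfl hne

/-- The "upper facet" function. -/
noncomputable def Ufun (u : Fin 20 → ℝ) : ℝ :=
  ∑ i, max (-u i) 0 + max (∑ i ∈ B1, u i) 0 + max (∑ i ∈ B2, u i) 0

theorem Ufun_eq (u : Fin 20 → ℝ) : Ufun u = Hfun u / 2 := by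
  unfold Ufun Hfun
  have h1 : ∀ t : ℝ, max (-t) 0 = (|t| - t) / 2 := by
    intro t
    rcases le_total 0 t with h | h
    · rw [max_eq_right (by linarith), abs_of_nonneg h]; ring
    · rw [max_eq_left (by linarith), abs_of_nonpos h]; ring
  have h2 : ∀ t : ℝ, max t 0 = (|t| + t) / 2 := by
    intro t
    rcases le_total 0 t with h | h
    · rw [max_eq_left h, abs_of_nonneg h]; ring
    · rw [max_eq_right h, abs_of_nonpos h]; ring
  simp only [h1, h2]
  rw [← Finset.sum_div, Finset.sum_sub_distrib, ← sum_B1_add_sum_B2 u]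
  ring

theorem Ufun_nonneg (u : Fin 20 → ℝ) : 0 ≤ Ufun u := by
  unfold Ufun
  have : 0 ≤ ∑ i, max (-u i) 0 := Finset.sum_nonneg fun i _ => le_max_right _ _
  have := le_max_right (∑ i ∈ B1, u i) 0
  have := le_max_right (∑ i ∈ B2, u i) 0
  linarith

theorem term_eq (t : ℝ) (c : ℝ) (_hc : 0 ≤ c) (v : ENNReal) (hv : v = ENNReal.ofReal c) :
    (if 0 < t then ENNReal.ofReal |t| * v else 0) = ENNReal.ofReal (max t 0 * c) := by
  subst hv
  split_ifs with h
  · rw [max_eq_left h.le, abs_of_pos h, ENNReal.ofReal_mul h.le]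
  · rw [max_eq_right (not_lt.mp h)]; simp

/-- The volume of the sweep of `Kpi`. -/
theorem volume_sweep_Kpi (u : Fin 20 → ℝ) :
    volume (sweep Kpi u) = volume Kpi + ENNReal.ofReal (aConst * Ufun u) := by
  have hK : IsCompact {x : Fin 20 → ℝ | ∀ j, ell j x ≤ bb j} := by
    rw [← Kpi_eq]; exact isCompact_Kpi
  have h := Crest.Agent.S0355.Helper51.sweep_decomp (volume : Measure (Fin 20 → ℝ)) ell bb u hK
    (ell_indep u)
  rw [← Kpi_eq] at h
  rw [h, Finset.sum_filter, Fintype.sum_sum_type, Fintype.sum_bool]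
  congr 1
  have hc : (0 : ℝ) ≤ aConst := aConst_pos.le
  have hcyl : ∀ i, volume (Cyl i) = ENNReal.ofReal aConst := fun i => Crest.Agent.S0355.Helper6.volume_Cyl i
  have t1 : ∀ i : Fin 20, (if 0 < ell (Sum.inl i) u then
      volume (sweep {x : Fin 20 → ℝ | (∀ k, ell k x ≤ bb k) ∧ ell (Sum.inl i) x = bb (Sum.inl i)} u)
      else 0) = ENNReal.ofReal (max (-u i) 0 * aConst) := by
    intro i
    have hset : {x : Fin 20 → ℝ | (∀ k, ell k x ≤ bb k) ∧ ell (Sum.inl i) x = bb (Sum.inl i)} =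
        {y : Fin 20 → ℝ | y ∈ Kpi ∧ y i = 0} := by
      ext x
      rw [Kpi_eq]
      simp only [Set.mem_ofPred_eq, ell_inl, bb, neg_eq_zero]
    rw [hset, Crest.Agent.S0355.Helper43.volume_sweep_facet_coord, ell_inl, ← abs_neg (u i)]
    exact term_eq (-u i) aConst hc _ (hcyl i)
  have t2 : (if 0 < ell (Sum.inr true) u then
      volume (sweep {x : Fin 20 → ℝ | (∀ k, ell k x ≤ bb k) ∧
        ell (Sum.inr true) x = bb (Sum.inr true)} u)
      else 0) = ENNReal.ofReal (max (∑ i ∈ B2, u i) 0 * aConst) := by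
    have hset : {x : Fin 20 → ℝ | (∀ k, ell k x ≤ bb k) ∧
        ell (Sum.inr true) x = bb (Sum.inr true)} =
        {y : Fin 20 → ℝ | y ∈ Kpi ∧ ∑ i ∈ B2, y i = 1} := by
      ext x
      rw [Kpi_eq]
      simp only [Set.mem_ofPred_eq, ell_true, bb]
    rw [hset, Crest.Agent.S0355.Helper43.volume_sweep_facet_sum2, ell_true]
    exact term_eq _ aConst hc _ (hcyl 10)
  have t3 : (if 0 < ell (Sum.inr false) u then
      volume (sweep {x : Fin 20 → ℝ | (∀ k, ell k x ≤ bb k) ∧
        ell (Sum.inr false) x = bb (Sum.inr false)} u)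
      else 0) = ENNReal.ofReal (max (∑ i ∈ B1, u i) 0 * aConst) := by
    have hset : {x : Fin 20 → ℝ | (∀ k, ell k x ≤ bb k) ∧
        ell (Sum.inr false) x = bb (Sum.inr false)} =
        {y : Fin 20 → ℝ | y ∈ Kpi ∧ ∑ i ∈ B1, y i = 1} := by
      ext x
      rw [Kpi_eq]
      simp only [Set.mem_ofPred_eq, ell_false, bb]
    rw [hset, Crest.Agent.S0355.Helper43.volume_sweep_facet_sum1, ell_false]
    exact term_eq _ aConst hc _ (hcyl 0)
  simp only [t1]
  have hA : 0 ≤ ∑ i, max (-u i) 0 * aConst :=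
    Finset.sum_nonneg fun i _ => mul_nonneg (le_max_right _ _) hc
  have hB : 0 ≤ max (∑ i ∈ B2, u i) 0 * aConst := mul_nonneg (le_max_right _ _) hc
  have hC : 0 ≤ max (∑ i ∈ B1, u i) 0 * aConst := mul_nonneg (le_max_right _ _) hc
  rw [t2, t3, ← ENNReal.ofReal_sum_of_nonneg (fun i _ => mul_nonneg (le_max_right _ _) hc),
    ← ENNReal.ofReal_add hB hC, ← ENNReal.ofReal_add hA (add_nonneg hB hC)]
  congr 1
  unfold Ufun
  rw [← Finset.sum_mul]
  ring

theorem volume_KE : volume KE = ENNReal.ofReal (1 / (((10 : ℕ).factorial : ℝ) * ((10 : ℕ).factorial : ℝ))) := by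
  unfold KE
  rw [volume_ofLp_preimage, Crest.Agent.S0355.Helper6.volume_Kpi]

/-- The shadow function of `KE`. -/
theorem shadow_KE (u : EuclideanSpace ℝ (Fin 20)) (hu : ‖u‖ = 1) :
    (μHE[19] : Measure (EuclideanSpace ℝ (Fin 20))) ((fun y => y - inner ℝ y u • u) '' KE) =
      ENNReal.ofReal (aConst / 2 * Hfun u.ofLp) := by
  have hd : Module.finrank ℝ (EuclideanSpace ℝ (Fin 20)) = 19 + 1 := by simp
  have h := sweep_eq_add_shadow hd KE isCompact_KE convex_KE u hu
  rw [sweep_KE, volume_ofLp_preimage, volume_sweep_Kpi] at h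
  have hK : volume KE = volume Kpi := by unfold KE; rw [volume_ofLp_preimage]
  rw [hK] at h
  have hfin : volume Kpi ≠ ⊤ := by
    rw [Crest.Agent.S0355.Helper6.volume_Kpi]; exact ENNReal.ofReal_ne_top
  have h' := (ENNReal.add_right_inj hfin).mp h
  rw [← h', Ufun_eq]
  congr 1
  ring

theorem Hfun_nonneg (u : Fin 20 → ℝ) : 0 ≤ Hfun u := by
  unfold Hfun
  have : 0 ≤ ∑ i, |u i| := Finset.sum_nonneg fun i _ => abs_nonneg _
  positivity

/-- The projection body of `KE`. -/
theorem projBody_KE :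
    (⋂ u ∈ Metric.sphere (0 : EuclideanSpace ℝ (Fin 20)) 1,
      {x : EuclideanSpace ℝ (Fin 20) | inner ℝ x u ≤
        ((μHE[19] : Measure (EuclideanSpace ℝ (Fin 20)))
          ((fun y => y - inner ℝ y u • u) '' KE)).toReal}) =
      {x : EuclideanSpace ℝ (Fin 20) | x.ofLp ∈ PiSet aConst} := by
  rw [← Crest.Agent.S0355.Helper14.polar_eq aConst aConst_pos]
  refine Set.iInter₂_congr fun u hu => ?_
  have hu1 : ‖u‖ = 1 := by simpa using hu
  rw [shadow_KE u hu1, ENNReal.toReal_ofReal (mul_nonneg (by have := aConst_pos; positivity)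
    (Hfun_nonneg _))]

theorem volume_projBody_KE :
    volume (⋂ u ∈ Metric.sphere (0 : EuclideanSpace ℝ (Fin 20)) 1,
      {x : EuclideanSpace ℝ (Fin 20) | inner ℝ x u ≤
        ((μHE[19] : Measure (EuclideanSpace ℝ (Fin 20)))
          ((fun y => y - inner ℝ y u • u) '' KE)).toReal}) =
      ENNReal.ofReal (121 * aConst ^ 20) := by
  rw [projBody_KE, volume_ofLp_preimage,
    Crest.Agent.S0355.Helper88.volume_PiSet aConst aConst_pos]

theorem ratio_arith :
    (121 * aConst ^ 20) / (1 / (((10 : ℕ).factorial : ℝ) * ((10 : ℕ).factorial : ℝ))) ^ 19 =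
      (21 * 20 ^ 20 / Nat.factorial 20 : ℝ) * (22355476 / 22020096) := by
  unfold aConst
  norm_num [Nat.factorial]

/-- **S0355**, assembled. -/
theorem main :
    ∃ K : Set (EuclideanSpace ℝ (Fin 20)), IsCompact K ∧ Convex ℝ K ∧ (interior K).Nonempty ∧
      (volume (⋂ u ∈ Metric.sphere (0 : EuclideanSpace ℝ (Fin 20)) 1,
            {x : EuclideanSpace ℝ (Fin 20) | inner ℝ x u ≤
              ((μHE[19] : Measure (EuclideanSpace ℝ (Fin 20))) ((fun y => y - inner ℝ y u • u) '' K)).toReal})).toReal /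
          (volume K).toReal ^ 19 =
        (21 * 20 ^ 20 / Nat.factorial 20 : ℝ) * (22355476 / 22020096) ∧
      (21 * 20 ^ 20 / Nat.factorial 20 : ℝ) * (volume K).toReal ^ 19 <
        (volume (⋂ u ∈ Metric.sphere (0 : EuclideanSpace ℝ (Fin 20)) 1,
            {x : EuclideanSpace ℝ (Fin 20) | inner ℝ x u ≤
              ((μHE[19] : Measure (EuclideanSpace ℝ (Fin 20))) ((fun y => y - inner ℝ y u • u) '' K)).toReal})).toReal := by
  refine ⟨KE, isCompact_KE, convex_KE, interior_KE_nonempty, ?_, ?_⟩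
  · rw [volume_projBody_KE, volume_KE, ENNReal.toReal_ofReal (by have := aConst_pos; positivity),
      ENNReal.toReal_ofReal (by positivity)]
    exact ratio_arith
  · rw [volume_projBody_KE, volume_KE, ENNReal.toReal_ofReal (by have := aConst_pos; positivity),
      ENNReal.toReal_ofReal (by positivity)]
    have h := ratio_arith
    have hV : (0 : ℝ) < (1 / (((10 : ℕ).factorial : ℝ) * ((10 : ℕ).factorial : ℝ))) ^ 19 := by
      positivity
    rw [div_eq_iff hV.ne'] at h
    rw [h]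
    have hc : (0 : ℝ) < 21 * 20 ^ 20 / Nat.factorial 20 := by positivity
    have : (1 : ℝ) < 22355476 / 22020096 := by norm_num
    nlinarith [mul_pos hc hV]

end Crest.Agent.S0355.Helper70
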