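import Crest.Agent.Lib.S0355.Helper70Defs

/-!
# S0355, package E part 2 (helper88): volume of the zonotope `PiSet a`

`PiSet a = a • PiSet 1`, and `PiSet 1` is, under the volume-preserving block split
`(Fin 20 → ℝ) ≃ᵐ ({i // i < 10} → ℝ) × ({i // ¬ i < 10} → ℝ)`, the product of two copies of the
zonotope `Z` of `volume_Z` (volume `10 + 1` each).

This file imports only `Helper70Defs`; the volume of `Z` (package E part 1, `Spec.volume_Z`) enters
as the hypothesis `hZ` of `volume_PiSet_of_volume_Z`.  The exact Spec statement is then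
`volume_PiSet a ha := volume_PiSet_of_volume_Z (fun ι _ _ => <volume_Z> ι) a ha`.
-/

set_option autoImplicit false
open MeasureTheory
open scoped Pointwise

namespace Crest.Agent.S0355.Helper88
open Crest.Agent.S0355.Helper70

/-- Scaling: `PiSet a = a • PiSet 1` for `a > 0`. -/
theorem PiSet_eq_smul (a : ℝ) (ha : 0 < a) : PiSet a = a • PiSet 1 := by
  ext x
  rw [Set.mem_smul_set_iff_inv_smul_mem₀ ha.ne']
  have key : ∀ t : ℝ, |a⁻¹ * t| ≤ 1 ↔ |t| ≤ a := by
    intro t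
    rw [abs_mul, abs_of_pos (inv_pos.2 ha), inv_mul_le_iff₀ ha, mul_one]
  simp only [PiSet, Set.mem_ofPred_eq, Pi.smul_apply, smul_eq_mul, ← mul_sub, key]

/-- The block split of `PiSet 1`. -/
theorem PiSet_one_eq_preimage :
    PiSet 1 = (MeasurableEquiv.piEquivPiSubtypeProd (fun _ : Fin 20 => ℝ)
        (fun i : Fin 20 => i.val < 10)) ⁻¹'
      ({y : {i : Fin 20 // i.val < 10} → ℝ | (∀ i, |y i| ≤ 1) ∧ ∀ i j, |y i - y j| ≤ 1} ×ˢ
        {y : {i : Fin 20 // ¬ i.val < 10} → ℝ | (∀ i, |y i| ≤ 1) ∧ ∀ i j, |y i - y j| ≤ 1}) := by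
  ext x
  have e1 : ∀ i : {i : Fin 20 // i.val < 10},
      ((MeasurableEquiv.piEquivPiSubtypeProd (fun _ : Fin 20 => ℝ)
        (fun i : Fin 20 => i.val < 10)) x).1 i = x i.1 := fun _ => rfl
  have e2 : ∀ i : {i : Fin 20 // ¬ i.val < 10},
      ((MeasurableEquiv.piEquivPiSubtypeProd (fun _ : Fin 20 => ℝ)
        (fun i : Fin 20 => i.val < 10)) x).2 i = x i.1 := fun _ => rfl
  simp only [PiSet, Set.mem_ofPred_eq, Set.mem_preimage, Set.mem_prod, e1, e2]
  constructor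
  · rintro ⟨h1, h2⟩
    refine ⟨⟨fun i => h1 i.1, fun i j => h2 i.1 j.1 ?_⟩, ⟨fun i => h1 i.1, fun i j => h2 i.1 j.1 ?_⟩⟩
    · exact ⟨fun _ => j.2, fun _ => i.2⟩
    · exact ⟨fun h => absurd h i.2, fun h => absurd h j.2⟩
  · rintro ⟨⟨h1, h2⟩, ⟨h3, h4⟩⟩
    refine ⟨fun i => ?_, fun i j hij => ?_⟩
    · by_cases hi : i.val < 10
      · exact h1 ⟨i, hi⟩
      · exact h3 ⟨i, hi⟩
    · by_cases hi : i.val < 10
      · exact h2 ⟨i, hi⟩ ⟨j, hij.1 hi⟩
      · exact h4 ⟨i, hi⟩ ⟨j, fun hj => hi (hij.2 hj)⟩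

/-- `volume (PiSet a) = 121 a^20`, given the volume of the zonotope `Z` (package E part 1). -/
theorem volume_PiSet_of_volume_Z
    (hZ : ∀ (ι : Type) [Fintype ι] [Nonempty ι],
      volume {y : ι → ℝ | (∀ i, |y i| ≤ 1) ∧ ∀ i j, |y i - y j| ≤ 1} =
        ((Fintype.card ι : ENNReal) + 1))
    (a : ℝ) (ha : 0 < a) :
    volume (PiSet a) = ENNReal.ofReal (121 * a ^ 20) := by
  have : Nonempty {i : Fin 20 // i.val < 10} := ⟨⟨0, by decide⟩⟩
  have : Nonempty {i : Fin 20 // ¬ i.val < 10} := ⟨⟨10, by decide⟩⟩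
  have c1 : Fintype.card {i : Fin 20 // i.val < 10} = 10 := by decide
  have c2 : Fintype.card {i : Fin 20 // ¬ i.val < 10} = 10 := by decide
  have hone : volume (PiSet 1) = 121 := by
    rw [PiSet_one_eq_preimage,
      (volume_preserving_piEquivPiSubtypeProd (fun _ : Fin 20 => ℝ)
        (fun i : Fin 20 => i.val < 10)).measure_preimage_equiv,
      Measure.volume_eq_prod, Measure.prod_prod, hZ, hZ, c1, c2]
    norm_num
  have hfin : Module.finrank ℝ (Fin 20 → ℝ) = 20 := by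
    rw [Module.finrank_fintype_fun_eq_card, Fintype.card_fin]
  rw [PiSet_eq_smul a ha, Measure.addHaar_smul, hfin, hone, abs_of_pos (pow_pos ha 20),
    mul_comm (121 : ℝ), ENNReal.ofReal_mul (pow_pos ha 20).le]
  norm_num

end Crest.Agent.S0355.Helper88
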